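import Vale.Agent.P032.S5.H979.NearH
import Vale.Agent.P032.S5.H287.HMTop
import Vale.Agent.P032.S5.H360.Match

/-!
# P032: `near` for all pairs of points with at most four colours

`Irr.side` : one-sidedness at a unit pair.
`Irr.no_eq` : the pair `x, y` of harmless points with equal palettes, joined by a connected subset of
`T_a ∩ T_c`, contradicts the minimality of the palette of `x`.
`Irr.near_all` : `Irr.near` for all pairs of points with at most four colours.
-/

open Set Filter Topology Metric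

noncomputable section

namespace Vale.Agent.P032.Six

open Vale.Agent.P032.S5

variable {k : ℕ}

theorem cis_add_cis (s t : ℝ) : cis (s + t) = cis s * cis t := by
  unfold cis
  rw [← Complex.exp_add]
  congr 1
  push_cast
  ring

/-- small rotations are not trivial -/
theorem cis_ne_one {t : ℝ} (h0 : 0 < t) (h1 : t ≤ 1) : cis t ≠ 1 ∧ cis t ≠ -1 := by
  have hre : (cis t).re = Real.cos t := by
    unfold cis
    rw [Complex.exp_ofReal_mul_I_re]
  have h3 := Real.pi_gt_three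
  constructor
  · intro h
    rw [h, Complex.one_re] at hre
    have h9 : Real.cos t < 1 := by
      rw [← Real.cos_zero]
      exact Real.cos_lt_cos_of_nonneg_of_le_pi le_rfl (by linarith) h0
    linarith
  · intro h
    rw [h, Complex.neg_re, Complex.one_re] at hre
    have h9 : 0 < Real.cos t := Real.cos_pos_of_mem_Ioo ⟨by linarith, by linarith⟩
    linarith

/-- a second point of the circle near `x` -/
theorem exists_other {x y : ℂ} (hxy : dist x y = 1) {P : ℂ → Prop}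
    (hP : ∀ᶠ p in 𝓝[sphere y 1] x, P p) : ∃ θ t : ℝ, x = y + cis θ ∧ 0 < t ∧
      (∀ s, |s| ≤ t → P (y + cis (θ + s))) ∧ y + cis (θ + t) ≠ x ∧
      y + cis (θ + t) + x ≠ 2 * y := by
  obtain ⟨θ, hθ⟩ := exists_cis (u := x - y) (by rw [← dist_eq_norm]; exact hxy)
  have hxθ : x = y + cis θ := by rw [← hθ]; ring
  have hc : Tendsto (fun s : ℝ => y + cis (θ + s)) (𝓝 0) (𝓝[sphere y 1] x) := by
    refine tendsto_nhdsWithin_iff.2 ⟨?_, Eventually.of_forall fun s => ?_⟩
    · have h1 : Continuous fun s : ℝ => y + cis (θ + s) :=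
        continuous_const.add (continuous_cis.comp (continuous_const.add continuous_id))
      have h2 := h1.tendsto 0
      rwa [add_zero, ← hxθ] at h2
    · exact mem_sphere.2 (dist_add_cis y _)
  have h3 := hc.eventually hP
  rw [Metric.eventually_nhds_iff] at h3
  obtain ⟨ε, hε, hPε⟩ := h3
  have ht0 : 0 < min (ε / 2) 1 := lt_min (by linarith) one_pos
  have htε : min (ε / 2) 1 < ε := lt_of_le_of_lt (min_le_left _ _) (by linarith)
  obtain ⟨hc1, hc2⟩ := cis_ne_one ht0 (min_le_right _ _)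
  have hne : cis θ ≠ 0 := by
    intro h0
    have := norm_cis θ
    rw [h0, norm_zero] at this
    exact zero_ne_one this
  refine ⟨θ, min (ε / 2) 1, hxθ, ht0, fun s hs => ?_, fun h => ?_, fun h => ?_⟩
  · exact hPε (y := s) (by rw [Real.dist_eq, sub_zero]; exact lt_of_le_of_lt hs htε)
  · rw [hxθ, cis_add_cis] at h
    have h5 : cis θ * cis (min (ε / 2) 1) = cis θ * 1 := by
      rw [mul_one]; exact add_left_cancel h
    exact hc1 (mul_left_cancel₀ hne h5)
  · rw [hxθ, cis_add_cis] at h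
    have h5 : cis θ * cis (min (ε / 2) 1) = cis θ * (-1) := by
      linear_combination h
    exact hc2 (mul_left_cancel₀ hne h5)

/-- **One side.** `|x - y| = 1`, the circle about `x` carries `A` near `y`, the circle about `y`
carries `d` near `x`, near `x` the colour `c` lives in the disc about `y`, no other colours: near `y`
the colour `d` lives outside the disc about `x` -/
theorem Irr.side {U : Fin k → Set ℂ} {T : ℂ → Set (Fin k)} (h : Irr U T) {x y : ℂ}
    (hxy : dist x y = 1) {A : Set (Fin k)} {c d : Fin k}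
    (hTx : ∀ m ∈ T x, m ∈ A ∨ m = c ∨ m = d)
    (hA : ∀ᶠ q in 𝓝[sphere x 1] y, A ⊆ T q) (hd : ∀ᶠ p in 𝓝[sphere y 1] x, d ∈ T p)
    (hc : ∀ᶠ w in 𝓝 x, c ∈ T w → dist y w ≤ 1) : ∀ᶠ w in 𝓝 y, d ∈ T w → 1 ≤ dist x w := by
  obtain ⟨r, hr, hball⟩ := Metric.eventually_nhds_iff_ball.1 ((h.nhd x).and hc)
  have hP : ∀ᶠ p in 𝓝[sphere y 1] x, d ∈ T p ∧ p ∈ ball x r := by
    filter_upwards [hd, mem_nhdsWithin_of_mem_nhds (ball_mem_nhds x hr)] with p h1 h2
    exact ⟨h1, h2⟩
  obtain ⟨θ, t, hxθ, ht0, hPt, hne1, hne2⟩ := exists_other hxy hP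
  set p := y + cis (θ + t) with hp
  have hpd := hPt t (by rw [abs_of_pos ht0])
  have hpy : dist y p = 1 := by rw [dist_comm]; exact dist_add_cis y _
  have hpA : ∀ m ∈ A, m ∉ Pal U p := by
    intro m hm hmp
    rcases h.mx.partner_line (u := x) (p := y) (t := m) (by rw [dist_comm]; exact hxy)
      (hA.mono fun q hq => h.sub q (hq hm)) hpy hmp with h1 | h1
    · exact hne1 h1
    · exact hne2 h1
  have hTp : ∀ m ∈ T p, m = c ∨ m = d := by
    intro m hm
    rcases hTx m ((hball p hpd.2).1 hm) with h1 | h1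
    · exact absurd (h.sub p hm) (hpA m h1)
    · exact h1
  -- the radial segment
  have hcr : Tendsto (fun s : ℝ => y + (1 + (s : ℂ)) * cis (θ + t)) (𝓝 0) (𝓝 p) := by
    have h1 : Continuous fun s : ℝ => y + (1 + (s : ℂ)) * cis (θ + t) := by fun_prop
    have h2 := h1.tendsto 0
    simpa [hp] using h2
  have h3 := hcr.eventually ((h.nhd p).and (isOpen_ball.mem_nhds hpd.2))
  rw [Metric.eventually_nhds_iff] at h3
  obtain ⟨ε, hε, hPε⟩ := h3
  have hdist : ∀ s : ℝ, 0 ≤ s → dist (y + (1 + (s : ℂ)) * cis (θ + t)) y = 1 + s := by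
    intro s hs
    rw [dist_eq_norm, add_sub_cancel_left, norm_mul, norm_cis, mul_one]
    have e : (1 : ℂ) + (s : ℂ) = ((1 + s : ℝ) : ℂ) := by push_cast; ring
    rw [e, Complex.norm_real, Real.norm_of_nonneg (by linarith)]
  have hseg : ∀ s : ℝ, 0 ≤ s → s ≤ ε / 2 → d ∈ T (y + (1 + (s : ℂ)) * cis (θ + t)) := by
    intro s hs0 hs1
    rcases hs0.lt_or_eq with hs | hs
    · obtain ⟨h4, h5⟩ := hPε (y := s) (by rw [Real.dist_eq, sub_zero, abs_of_pos hs]; linarith)
      obtain ⟨m, hm⟩ := h.ne (y + (1 + (s : ℂ)) * cis (θ + t))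
      rcases hTp m (h4 hm) with rfl | rfl
      · have h6 := (hball _ h5).2 hm
        rw [dist_comm, hdist s hs0] at h6
        linarith
      · exact hm
    · rw [← hs]
      have e : y + (1 + ((0 : ℝ) : ℂ)) * cis (θ + t) = p := by rw [hp]; push_cast; ring
      rw [e]
      exact hpd.1
  -- the connected set
  set Q := (fun s : ℝ => y + cis (θ + s)) '' Icc 0 t ∪
    (fun s : ℝ => y + (1 + (s : ℂ)) * cis (θ + t)) '' Icc 0 (ε / 2) with hQdef
  have hQ : IsPreconnected Q := by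
    refine IsPreconnected.union p ⟨t, ⟨ht0.le, le_rfl⟩, rfl⟩ ⟨0, ⟨le_rfl, by linarith⟩, ?_⟩ ?_ ?_
    · show y + (1 + ((0 : ℝ) : ℂ)) * cis (θ + t) = p
      rw [hp]; push_cast; ring
    · exact isPreconnected_Icc.image _ (continuous_const.add
        (continuous_cis.comp (continuous_const.add continuous_id))).continuousOn
    · refine isPreconnected_Icc.image _ (Continuous.continuousOn ?_)
      fun_prop
  have hQd : Q ⊆ closure (U d) := by
    rintro _ (⟨s, hs, rfl⟩ | ⟨s, hs, rfl⟩)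
    · exact h.sub _ (hPt s (by rw [abs_of_nonneg hs.1]; exact hs.2)).1
    · exact h.sub _ (hseg s hs.1 hs.2)
  have hxQ : x ∈ Q := Or.inl ⟨0, ⟨le_rfl, ht0.le⟩, by
    show y + cis (θ + 0) = x
    rw [add_zero, ← hxθ]⟩
  have hrQ : y + (1 + ((ε / 2 : ℝ) : ℂ)) * cis (θ + t) ∈ Q :=
    Or.inr ⟨ε / 2, ⟨by linarith, le_rfl⟩, rfl⟩
  have hfar : ∀ᶠ w in 𝓝 y, 1 < dist (y + (1 + ((ε / 2 : ℝ) : ℂ)) * cis (θ + t)) w := by
    have hcon : Continuous fun w => dist (y + (1 + ((ε / 2 : ℝ) : ℂ)) * cis (θ + t)) w := by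
      fun_prop
    refine hcon.continuousAt.eventually (Ioi_mem_nhds ?_)
    show 1 < dist (y + (1 + ((ε / 2 : ℝ) : ℂ)) * cis (θ + t)) y
    rw [hdist _ (by linarith)]
    linarith
  filter_upwards [hfar] with w hw hdw
  by_contra hcon
  push Not at hcon
  exact h.mx.wlemma hQ hQd hxQ hrQ hcon hw (h.sub w hdw)

/-- **No joined pair with equal palettes.** -/
theorem Irr.no_eq {U : Fin k → Set ℂ} {T : ℂ → Set (Fin k)} (h : Irr U T) {x y : ℂ}
    (hxy : dist x y = 1) {a b c d : Fin k} (hbd : b ≠ d)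
    (hTx : ∀ m ∈ T x, m = a ∨ m = b ∨ m = c ∨ m = d)
    (hTy : ∀ m ∈ T y, m = a ∨ m = b ∨ m = c ∨ m = d) (hbx : b ∈ T x) (hdx : d ∈ T x)
    (hab : ∀ᶠ q in 𝓝[sphere x 1] y, a ∈ T q ∧ b ∈ T q)
    (hcd : ∀ᶠ p in 𝓝[sphere y 1] x, c ∈ T p ∧ d ∈ T p)
    {Q : Set ℂ} (hQ : IsPreconnected Q) (hQa : ∀ z ∈ Q, a ∈ T z) (hQc : ∀ z ∈ Q, c ∈ T z)
    (hx : x ∈ Q) (hy : y ∈ Q) :
    ∃ s, s ⊆ T x ∧ s ≠ T x ∧ ∀ᶠ w in 𝓝 x, Suf U s w := by
  have near1 : ∀ z : ℂ, ∀ᶠ w in 𝓝 z, dist z w < 1 := by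
    intro z
    have hcon : Continuous fun w => dist z w := by fun_prop
    refine hcon.continuousAt.eventually (Iio_mem_nhds ?_)
    show dist z z < 1
    rw [dist_self]
    exact one_pos
  have hyx : dist y x = 1 := by rw [dist_comm]; exact hxy
  have hbs : ∀ᶠ w in 𝓝 x, b ∈ T w → 1 ≤ dist y w := by
    refine h.side (A := {c, d}) (c := a) (d := b) hyx ?_ ?_ (hab.mono fun q hq => hq.2) ?_
    · intro m hm
      rcases hTy m hm with rfl | rfl | rfl | rfl
      · exact Or.inr (Or.inl rfl)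
      · exact Or.inr (Or.inr rfl)
      · exact Or.inl (Or.inl rfl)
      · exact Or.inl (Or.inr rfl)
    · filter_upwards [hcd] with q hq m hm
      rcases hm with rfl | rfl
      · exact hq.1
      · exact hq.2
    · filter_upwards [near1 y] with w hw haw
      exact h.conn_le hQ hQa hx hy haw hw
  obtain ⟨V, hV, hVs⟩ := mem_nhdsWithin_iff_exists_mem_nhds_inter.1 hcd
  have hs : ∀ᶠ w in 𝓝 x, ∀ m ∈ T w, b ∈ T w → m = b ∨ d ∈ T w := by
    filter_upwards [near1 x, h.nhd x, hbs, hV] with w h1 h2 h3 h4 m hm hbw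
    by_cases hmb : m = b
    · exact Or.inl hmb
    by_cases hmd : m = d
    · exact Or.inr (hmd ▸ hm)
    have h5 : dist y w ≤ 1 := by
      rcases hTx m (h2 hm) with rfl | rfl | rfl | rfl
      · exact h.conn_le hQ hQa hy hx hm h1
      · exact absurd rfl hmb
      · exact h.conn_le hQ hQc hy hx hm h1
      · exact absurd rfl hmd
    have h6 : dist w y = 1 := by
      rw [dist_comm]
      exact le_antisymm h5 (h3 hbw)
    exact Or.inr (hVs ⟨h4, mem_sphere.2 h6⟩).2
  have h7 := h.sole (h.sub x hdx) hs hyx (hab.mono fun q hq => h.sub q hq.2)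
  refine ⟨T x \ {b}, sdiff_subset, fun hcon => ?_, h.suf_of_single hbd hdx h7⟩
  have h8 : b ∈ T x \ {b} := by rw [hcon]; exact hbx
  exact h8.2 rfl

/-- **Near**, all pairs of points with at most four colours -/
theorem Irr.near_all {U : Fin 6 → Set ℂ} {T : ℂ → Set (Fin 6)} (h : Irr U T)
    {p : Finset (Fin 6)} (hp : p.card = 2) {Q : Set ℂ} (hQ : IsPreconnected Q)
    (hQp : ∀ z ∈ Q, ∀ i ∈ p, i ∈ T z) {x y : ℂ} (hx : x ∈ Q) (hy : y ∈ Q)
    {S S' : Set (Fin 6)} (hS : Face T x S) (hS' : Face T y S') (hpS : ∀ i ∈ p, i ∈ S)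
    (hpS' : ∀ i ∈ p, i ∈ S') (hne : S ≠ S')
    (hcomp : ∀ z ∈ Q, ∀ s, Face T z s → ∀ w ∈ Q, ∀ u, dist u w ≤ 1 → Face T u sᶜ → 2 ≤ dist z u)
    (hx4 : (T x).ncard ≤ 4) (hy4 : (T y).ncard ≤ 4)
    (hH : dist x y = 1 → (T x).ncard = 4 → T x = T y → (∃ A, Harm T x A) ∧ (∃ B, Harm T y B) ∧
      ∀ s, s ⊆ T x → s ≠ T x → ¬ ∀ᶠ w in 𝓝 x, Suf U s w) :
    (∀ u, dist u x ≤ 1 → ¬ Face T u S'ᶜ) ∨ (∀ u, dist u y ≤ 1 → ¬ Face T u Sᶜ) := by
  refine h.near_four hp hQ hQp hx hy hS hS' hpS hpS' hne hcomp hx4 hy4 fun hxy h4 hTT => ?_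
  obtain ⟨⟨A, hA⟩, ⟨B, hB⟩, hmin⟩ := hH hxy h4 hTT
  obtain ⟨i, j, hij, rfl⟩ := Finset.card_eq_two.1 hp
  have hi : i ∈ ({i, j} : Finset (Fin 6)) := by simp
  have hj : j ∈ ({i, j} : Finset (Fin 6)) := by simp
  obtain ⟨m, hmi, hmj, hSm⟩ := third_of hS.1 hij (hpS i hi) (hpS j hj)
  obtain ⟨l, hli, hlj, hSl⟩ := third_of hS'.1 hij (hpS' i hi) (hpS' j hj)
  have hml : m ≠ l := by
    rintro rfl
    exact hne (by rw [hSm, hSl])
  -- the common palette
  have hmS : m ∈ S := by rw [hSm]; simp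
  have hlS : l ∈ S' := by rw [hSl]; simp
  have hT : T x = {i, j, m, l} := by
    symm
    refine Set.eq_of_subset_of_ncard_le ?_ ?_ (Set.toFinite _)
    · rintro n (rfl | rfl | rfl | rfl)
      · exact hS.2.1 (hpS _ hi)
      · exact hS.2.1 (hpS _ hj)
      · exact hS.2.1 hmS
      · exact hTT ▸ hS'.2.1 hlS
    · have hc4 : ({i, j, m, l} : Set (Fin 6)).ncard = 4 := by
        rw [Set.ncard_eq_toFinset_card']
        have : ({i, j, m, l} : Set (Fin 6)).toFinset = {i, j, m, l} := by simp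
        rw [this, Finset.card_insert_of_notMem, Finset.card_insert_of_notMem,
          Finset.card_pair hml]
        · simp only [Finset.mem_insert, Finset.mem_singleton, not_or]
          exact ⟨Ne.symm hmj, Ne.symm hlj⟩
        · simp only [Finset.mem_insert, Finset.mem_singleton, not_or]
          exact ⟨hij, Ne.symm hmi, Ne.symm hli⟩
      rw [hc4, h4]
  have hTm : ∀ n ∈ T x, n = i ∨ n = j ∨ n = m ∨ n = l := by
    intro n hn
    rw [hT] at hn
    simpa using hn
  -- `l ∈ A`, `m ∈ B`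
  have hlA : l ∈ A := by
    obtain ⟨q, hq, hqA⟩ := hA.arc
    have hqA' : T q = A := hqA.self_of_nhdsWithin hq
    by_contra hcon
    refine hS.2.2 q hq fun n hn => ?_
    rw [hqA'] at hn
    rcases hTm n (hA.sub hn) with rfl | rfl | rfl | rfl
    · exact hpS _ hi
    · exact hpS _ hj
    · exact hmS
    · exact absurd hn hcon
  have hmB : m ∈ B := by
    obtain ⟨q, hq, hqB⟩ := hB.arc
    have hqB' : T q = B := hqB.self_of_nhdsWithin hq
    by_contra hcon
    refine hS'.2.2 q hq fun n hn => ?_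
    rw [hqB'] at hn
    rcases hTm n (hTT ▸ hB.sub hn) with rfl | rfl | rfl | rfl
    · exact hpS' _ hi
    · exact hpS' _ hj
    · exact absurd hn hcon
    · exact hlS
  have hAy : ∀ᶠ q in 𝓝[sphere x 1] y, A ⊆ T q := by
    filter_upwards [mem_nhdsWithin_of_mem_nhds (h.nhd y), self_mem_nhdsWithin] with q h1 h2
    exact hA.h1 q h2 (hTT ▸ h1)
  have hBx : ∀ᶠ q in 𝓝[sphere y 1] x, B ⊆ T q := by
    filter_upwards [mem_nhdsWithin_of_mem_nhds (h.nhd x), self_mem_nhdsWithin] with q h1 h2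
    exact hB.h1 q h2 (hTT ▸ h1)
  have hdis : ∀ n ∈ A, n ∉ B := by
    intro n hnA hnB
    obtain ⟨θ, t, hxθ, ht0, hPt, hne1, hne2⟩ := exists_other hxy hBx
    have h1 := hPt t (by rw [abs_of_pos ht0]) hnB
    rcases h.mx.partner_line (u := x) (p := y) (t := n) (by rw [dist_comm]; exact hxy)
      (hAy.mono fun q hq => h.sub q (hq hnA)) (v := y + cis (θ + t))
      (by rw [dist_comm]; exact dist_add_cis y _) (h.sub _ h1) with h2 | h2
    · exact hne1 h2
    · exact hne2 h2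
  obtain ⟨a, haA, hal⟩ : ∃ a ∈ A, a ≠ l := by
    by_contra hcon
    push Not at hcon
    have h1 : A ⊆ {l} := fun n hn => hcon n hn
    have := Set.ncard_le_ncard h1 (Set.toFinite _)
    rw [hA.cardA, Set.ncard_singleton] at this
    omega
  obtain ⟨c, hcB, hcm⟩ : ∃ c ∈ B, c ≠ m := by
    by_contra hcon
    push Not at hcon
    have h1 : B ⊆ {m} := fun n hn => hcon n hn
    have := Set.ncard_le_ncard h1 (Set.toFinite _)
    rw [hB.cardA, Set.ncard_singleton] at this
    omega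
  have ham : a ≠ m := fun h1 => hdis a haA (h1 ▸ hmB)
  have hcl : c ≠ l := fun h1 => hdis l hlA (h1 ▸ hcB)
  have hac : a ≠ c := fun h1 => hdis a haA (h1 ▸ hcB)
  have haij : a = i ∨ a = j := by
    rcases hTm a (hA.sub haA) with h1 | h1 | h1 | h1
    · exact Or.inl h1
    · exact Or.inr h1
    · exact absurd h1 ham
    · exact absurd h1 hal
  have hcij : c = i ∨ c = j := by
    rcases hTm c (hTT ▸ hB.sub hcB) with h1 | h1 | h1 | h1
    · exact Or.inl h1
    · exact Or.inr h1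
    · exact absurd h1 hcm
    · exact absurd h1 hcl
  have hmem : ∀ n ∈ T x, n = a ∨ n = l ∨ n = c ∨ n = m := by
    intro n hn
    rcases hTm n hn with h1 | h1 | h1 | h1
    · subst h1
      rcases haij with h2 | h2
      · exact Or.inl h2.symm
      · rcases hcij with h3 | h3
        · exact Or.inr (Or.inr (Or.inl h3.symm))
        · exact absurd (h2.trans h3.symm) hac
    · subst h1
      rcases haij with h2 | h2
      · rcases hcij with h3 | h3
        · exact absurd (h2.trans h3.symm) hac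
        · exact Or.inr (Or.inr (Or.inl h3.symm))
      · exact Or.inl h2.symm
    · exact Or.inr (Or.inr (Or.inr h1))
    · exact Or.inr (Or.inl h1)
  have hap : a ∈ ({i, j} : Finset (Fin 6)) := by
    rcases haij with rfl | rfl <;> simp
  have hcp : c ∈ ({i, j} : Finset (Fin 6)) := by
    rcases hcij with rfl | rfl <;> simp
  obtain ⟨s, hs1, hs2, hs3⟩ := h.no_eq hxy (a := a) (b := l) (c := c) (d := m) hml.symm hmem
    (fun n hn => hmem n (hTT ▸ hn)) (hA.sub hlA) (hTT ▸ hB.sub hmB)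
    (hAy.mono fun q hq => ⟨hq haA, hq hlA⟩) (hBx.mono fun q hq => ⟨hq hcB, hq hmB⟩)
    hQ (fun z hz => hQp z hz a hap) (fun z hz => hQp z hz c hcp) hx hy
  exact hmin s hs1 hs2 hs3

end Vale.Agent.P032.Six
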