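import Vale.Agent.P032.S5.H286.Near

/-!
# P032: two bases of a connected subset of `T_i ∩ T_j`, four-coloured points allowed

`Irr.near_gen` : the statement of `Irr.near` with the hypothesis `|T x| ≤ 3` or `|T y| ≤ 3` (for
`|x - y| = 1`) replaced by `T y \ p ⊆ Sᶜ` or `T x \ p ⊆ S'ᶜ`. This contains the old form and all pairs
of four-coloured points with different palettes (`Irr.near_four`).
-/

open Set Filter Topology Metric

noncomputable section

namespace Vale.Agent.P032.Six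

open Vale.Agent.P032.S5

variable {k : ℕ}

/-- the circle about the point `u` opposite to `x` contains points with palettes in `T y \ {i, j}` -/
theorem Irr.near_ptH {U : Fin k → Set ℂ} {T : ℂ → Set (Fin k)} (h : Irr U T) {i j : Fin k}
    {Q : Set ℂ} (hQ : IsPreconnected Q) (hQi : ∀ z ∈ Q, i ∈ T z) (hQj : ∀ z ∈ Q, j ∈ T z)
    {x y u : ℂ} (hx : x ∈ Q) (hy : y ∈ Q) (hxy : dist x y = 1) {s : Set (Fin k)}
    (hTy : ∀ m ∈ T y, m = i ∨ m = j ∨ m ∈ s) (hxu : 2 ≤ dist x u) (huy : dist u y ≤ 1) :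
    ∃ w, dist w u = 1 ∧ T w ⊆ s := by
  have hxu2 : dist x u = 2 := by
    have h1 := dist_triangle x y u
    rw [dist_comm y u] at h1
    linarith
  have hyu : dist y u = 1 := by
    have h1 := dist_triangle x y u
    rw [dist_comm u y] at huy
    linarith
  have hnear : ∀ᶠ w in 𝓝 y, 1 < dist w x → T w ⊆ s := by
    have hd : ∀ᶠ w in 𝓝 y, dist y w < 1 := by
      have hc : Continuous fun w => dist y w := by fun_prop
      refine hc.continuousAt.eventually (Iio_mem_nhds ?_)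
      show dist y y < 1
      rw [dist_self]
      exact one_pos
    filter_upwards [h.nhd y, hd] with w hw hdw hwx
    intro m hm
    rcases hTy m (hw hm) with rfl | rfl | hms
    · have := h.conn_le hQ hQi hx hy hm hdw
      rw [dist_comm] at this
      linarith
    · have := h.conn_le hQ hQj hx hy hm hdw
      rw [dist_comm] at this
      linarith
    · exact hms
  obtain ⟨θ, hθ⟩ := exists_cis (u := y - u) (by rw [← dist_eq_norm]; exact hyu)
  have hyθ : y = u + cis θ := by rw [← hθ]; ring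
  have hc : Tendsto (fun t : ℝ => u + cis (θ + t)) (𝓝 0) (𝓝 y) := by
    have h1 : Continuous fun t : ℝ => u + cis (θ + t) :=
      continuous_const.add (continuous_cis.comp (continuous_const.add continuous_id))
    have h2 := h1.tendsto 0
    rwa [add_zero, ← hyθ] at h2
  have h3 := hc.eventually hnear
  rw [Metric.eventually_nhds_iff] at h3
  obtain ⟨ε, hε, hP⟩ := h3
  set t := min (ε / 2) 1 with ht
  have ht0 : 0 < t := lt_min (by linarith) one_pos
  have htε : t < ε := lt_of_le_of_lt (min_le_left _ _) (by linarith)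
  have ht1 : t ≤ 1 := min_le_right _ _
  have hw : dist (u + cis (θ + t)) u = 1 := by
    rw [dist_eq_norm, add_sub_cancel_left, norm_cis]
  have hwy : u + cis (θ + t) ≠ y := by
    intro he
    rw [hyθ] at he
    have h4 : cis (θ + t) = cis θ := add_left_cancel he
    have h5 : cis (θ + t) = cis θ * cis t := by
      unfold cis
      rw [← Complex.exp_add]
      congr 1
      push_cast
      ring
    have h6 : cis θ ≠ 0 := by
      intro h0
      have := norm_cis θ
      rw [h0, norm_zero] at this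
      exact zero_ne_one this
    have h7 : cis t = 1 := by
      rw [h4] at h5
      exact (mul_right_eq_self₀.1 h5.symm).resolve_right h6
    have h8 : (cis t).re = Real.cos t := by
      unfold cis
      rw [Complex.exp_ofReal_mul_I_re]
    rw [h7, Complex.one_re] at h8
    have h9 : Real.cos t < 1 := by
      rw [← Real.cos_zero]
      refine Real.cos_lt_cos_of_nonneg_of_le_pi le_rfl ?_ ht0
      have := Real.pi_gt_three
      linarith
    linarith
  have hwx : 1 < dist (u + cis (θ + t)) x := by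
    by_contra hcon
    push Not at hcon
    have h4 := mid_of_dist hxu2 hcon hw.le
    have h5 := mid_of_dist hxu2 (w := y) (by rw [dist_comm]; exact hxy.le) hyu.le
    apply hwy
    have h6 : 2 * (u + cis (θ + t)) = 2 * y := by rw [h4, h5]
    exact mul_left_cancel₀ two_ne_zero h6
  exact ⟨_, hw, hP (y := t) (by rw [Real.dist_eq, sub_zero, abs_of_pos ht0]; exact htε) hwx⟩

/-- one alternative of `Irr.near_gen` -/
theorem Irr.near_oneH {U : Fin 6 → Set ℂ} {T : ℂ → Set (Fin 6)} (h : Irr U T) {p : Finset (Fin 6)}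
    (hp : p.card = 2) {Q : Set ℂ} (hQ : IsPreconnected Q) (hQp : ∀ z ∈ Q, ∀ i ∈ p, i ∈ T z)
    {x y : ℂ} (hx : x ∈ Q) (hy : y ∈ Q) {S : Set (Fin 6)} (hpS : ∀ i ∈ p, i ∈ S)
    (h3 : ∀ m ∈ T y, m ∉ p → m ∉ S) (hcomp : ∀ u, dist u y ≤ 1 → Face T u Sᶜ → 2 ≤ dist x u) :
    ∀ u, dist u y ≤ 1 → ¬ Face T u Sᶜ := by
  intro u hu hface
  obtain ⟨i, j, hij, rfl⟩ := Finset.card_eq_two.1 hp
  have hi : i ∈ ({i, j} : Finset (Fin 6)) := by simp
  have hj : j ∈ ({i, j} : Finset (Fin 6)) := by simp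
  have h2 := hcomp u hu hface
  have hxy : dist x y ≤ 1 := h.conn_le hQ (fun z hz => hQp z hz i hi) hx hy (hQp y hy i hi) (by
    rw [dist_self]; exact one_pos)
  have hxy1 : dist x y = 1 := by
    have h4 := dist_triangle x y u
    rw [dist_comm y u] at h4
    linarith
  obtain ⟨w, hw, hTw⟩ := h.near_ptH hQ (fun z hz => hQp z hz i hi) (fun z hz => hQp z hz j hj) hx hy
    hxy1 (s := Sᶜ) (fun m hm => by
      by_cases hmp : m ∈ ({i, j} : Finset (Fin 6))
      · simp only [Finset.mem_insert, Finset.mem_singleton] at hmp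
        rcases hmp with hmp | hmp
        · exact Or.inl hmp
        · exact Or.inr (Or.inl hmp)
      · exact Or.inr (Or.inr (h3 m hm hmp))) h2 hu
  exact hface.2.2 w hw hTw

/-- **Near**, general form -/
theorem Irr.near_gen {U : Fin 6 → Set ℂ} {T : ℂ → Set (Fin 6)} (h : Irr U T) {p : Finset (Fin 6)}
    (hp : p.card = 2) {Q : Set ℂ} (hQ : IsPreconnected Q) (hQp : ∀ z ∈ Q, ∀ i ∈ p, i ∈ T z)
    {x y : ℂ} (hx : x ∈ Q) (hy : y ∈ Q) {S S' : Set (Fin 6)} (hS : Face T x S)
    (hS' : Face T y S') (hpS : ∀ i ∈ p, i ∈ S) (hpS' : ∀ i ∈ p, i ∈ S')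
    (hcomp : ∀ z ∈ Q, ∀ s, Face T z s → ∀ w ∈ Q, ∀ u, dist u w ≤ 1 → Face T u sᶜ → 2 ≤ dist z u)
    (h1 : dist x y = 1 → (∀ m ∈ T y, m ∉ p → m ∉ S) ∨ (∀ m ∈ T x, m ∉ p → m ∉ S')) :
    (∀ u, dist u x ≤ 1 → ¬ Face T u S'ᶜ) ∨ (∀ u, dist u y ≤ 1 → ¬ Face T u Sᶜ) := by
  obtain ⟨i, hi⟩ := Finset.card_pos.1 (by rw [hp]; norm_num : 0 < p.card)
  have hxy : dist x y ≤ 1 := h.conn_le hQ (fun z hz => hQp z hz i hi) hx hy (hQp y hy i hi) (by
    rw [dist_self]; exact one_pos)
  rcases hxy.lt_or_eq with hlt | heq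
  · left
    intro u hu hface
    have h2 := hcomp y hy S' hS' x hx u hu hface
    have h3 := dist_triangle y x u
    rw [dist_comm y x, dist_comm x u] at h3
    linarith
  · rcases h1 heq with h3 | h3
    · right
      exact h.near_oneH hp hQ hQp hx hy hpS h3
        (fun u hu hf => hcomp x hx S hS y hy u hu hf)
    · left
      exact h.near_oneH hp hQ hQp hy hx hpS' h3
        (fun u hu hf => hcomp y hy S' hS' x hx u hu hf)

/-- the hypothesis `h1` of `Irr.near_gen`: palettes with at most four colours, different when both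
have four -/
theorem near_hyp {T : ℂ → Set (Fin 6)} {p : Finset (Fin 6)} (hp : p.card = 2) {x y : ℂ}
    {S S' : Set (Fin 6)} (hS : Face T x S) (hS' : Face T y S') (hpS : ∀ i ∈ p, i ∈ S)
    (hpS' : ∀ i ∈ p, i ∈ S') (hne : S ≠ S') (hx4 : (T x).ncard ≤ 4) (hy4 : (T y).ncard ≤ 4)
    (hT : (T x).ncard = 4 → T x ≠ T y) :
    (∀ m ∈ T y, m ∉ p → m ∉ S) ∨ (∀ m ∈ T x, m ∉ p → m ∉ S') := by
  obtain ⟨i, j, hij, rfl⟩ := Finset.card_eq_two.1 hp
  have hi : i ∈ ({i, j} : Finset (Fin 6)) := by simp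
  have hj : j ∈ ({i, j} : Finset (Fin 6)) := by simp
  obtain ⟨l, hli, hlj, hSl⟩ := third_of hS.1 hij (hpS i hi) (hpS j hj)
  obtain ⟨l', hli', hlj', hSl'⟩ := third_of hS'.1 hij (hpS' i hi) (hpS' j hj)
  have hll : l ≠ l' := by
    rintro rfl
    exact hne (by rw [hSl, hSl'])
  by_contra hcon
  push Not at hcon
  obtain ⟨⟨m, hmy, hmp, hmS⟩, ⟨n, hnx, hnp, hnS⟩⟩ := hcon
  simp only [Finset.mem_insert, Finset.mem_singleton, not_or] at hmp hnp
  have hml : m = l := by
    rw [hSl] at hmS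
    rcases hmS with h1 | h1 | h1
    · exact absurd h1 hmp.1
    · exact absurd h1 hmp.2
    · exact h1
  have hnl : n = l' := by
    rw [hSl'] at hnS
    rcases hnS with h1 | h1 | h1
    · exact absurd h1 hnp.1
    · exact absurd h1 hnp.2
    · exact h1
  subst hml
  subst hnl
  have hc4 : ({i, j, m, n} : Set (Fin 6)).ncard = 4 := by
    rw [Set.ncard_eq_toFinset_card']
    have : ({i, j, m, n} : Set (Fin 6)).toFinset = {i, j, m, n} := by simp
    rw [this, Finset.card_insert_of_notMem, Finset.card_insert_of_notMem,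
      Finset.card_pair hll]
    · simp only [Finset.mem_insert, Finset.mem_singleton, not_or]
      exact ⟨Ne.symm hlj, Ne.symm hlj'⟩
    · simp only [Finset.mem_insert, Finset.mem_singleton, not_or]
      exact ⟨hij, Ne.symm hli, Ne.symm hli'⟩
  have hsx : ({i, j, m, n} : Set (Fin 6)) ⊆ T x := by
    rintro a (rfl | rfl | rfl | rfl)
    · exact hS.2.1 (hpS _ hi)
    · exact hS.2.1 (hpS _ hj)
    · exact hS.2.1 (by rw [hSl]; simp)
    · exact hnx
  have hsy : ({i, j, m, n} : Set (Fin 6)) ⊆ T y := by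
    rintro a (rfl | rfl | rfl | rfl)
    · exact hS'.2.1 (hpS' _ hi)
    · exact hS'.2.1 (hpS' _ hj)
    · exact hmy
    · exact hS'.2.1 (by rw [hSl']; simp)
  have hxe : ({i, j, m, n} : Set (Fin 6)) = T x :=
    Set.eq_of_subset_of_ncard_le hsx (by rw [hc4]; exact hx4) (Set.toFinite _)
  have hye : ({i, j, m, n} : Set (Fin 6)) = T y :=
    Set.eq_of_subset_of_ncard_le hsy (by rw [hc4]; exact hy4) (Set.toFinite _)
  exact hT (by rw [← hxe]; exact hc4) (hxe.symm.trans hye)

/-- **Near**, all palettes with at most four colours, unit pairs of equal four-palettes excluded -/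
theorem Irr.near_four {U : Fin 6 → Set ℂ} {T : ℂ → Set (Fin 6)} (h : Irr U T)
    {p : Finset (Fin 6)} (hp : p.card = 2) {Q : Set ℂ} (hQ : IsPreconnected Q)
    (hQp : ∀ z ∈ Q, ∀ i ∈ p, i ∈ T z) {x y : ℂ} (hx : x ∈ Q) (hy : y ∈ Q)
    {S S' : Set (Fin 6)} (hS : Face T x S) (hS' : Face T y S') (hpS : ∀ i ∈ p, i ∈ S)
    (hpS' : ∀ i ∈ p, i ∈ S') (hne : S ≠ S')
    (hcomp : ∀ z ∈ Q, ∀ s, Face T z s → ∀ w ∈ Q, ∀ u, dist u w ≤ 1 → Face T u sᶜ → 2 ≤ dist z u)
    (hx4 : (T x).ncard ≤ 4) (hy4 : (T y).ncard ≤ 4)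
    (hT : dist x y = 1 → (T x).ncard = 4 → T x ≠ T y) :
    (∀ u, dist u x ≤ 1 → ¬ Face T u S'ᶜ) ∨ (∀ u, dist u y ≤ 1 → ¬ Face T u Sᶜ) :=
  h.near_gen hp hQ hQp hx hy hS hS' hpS hpS' hcomp fun h1 =>
    near_hyp hp hS hS' hpS hpS' hne hx4 hy4 (hT h1)

end Vale.Agent.P032.Six
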